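import Vale.Agent.P109.All

open MeasureTheory
open scoped ENNReal Manifold ContDiff

namespace Vale.Agent.Results.P109.NoModel
open Vale.Agent.P109

/-- `(X, μ, T)` has a smooth positive-volume model. -/
def SmoothModel {X : Type} [MeasurableSpace X] (μ : Measure X) (T : X → X) : Prop :=
  ∃ (d : ℕ) (H : Type) (_ : TopologicalSpace H)
    (I : ModelWithCorners ℝ (EuclideanSpace ℝ (Fin d)) H)
    (M : Type) (_ : TopologicalSpace M) (_ : ChartedSpace H M) (_ : IsManifold I ∞ M)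
    (_ : CompactSpace M) (_ : T2Space M) (_ : MeasurableSpace M) (_ : BorelSpace M)
    (ν : Measure M) (_ : IsProbabilityMeasure ν) (S : Diffeomorph I I M M ∞)
    (X0 : Set X) (M0 : Set M) (F : X → M) (G : M → X),
    SmoothPos I ν ∧ MeasurePreserving S ν ν ∧ μ X0ᶜ = 0 ∧ ν M0ᶜ = 0 ∧
      Set.MapsTo T X0 X0 ∧ Set.MapsTo S M0 M0 ∧ Set.BijOn F X0 M0 ∧ Set.InvOn G F X0 M0 ∧
      AEMeasurable F μ ∧ AEMeasurable G ν ∧ μ.map F = ν ∧ ∀ x ∈ X0, F (T x) = S (F x)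

theorem result :
    ∃ (X : Type) (_ : MeasurableSpace X) (μ : Measure X) (T : X ≃ᵐ X),
      StandardBorelSpace X ∧ IsProbabilityMeasure μ ∧ IsoUnit μ ∧ Ergodic T μ ∧ ksEnt μ T < ⊤ ∧
        ¬ SmoothModel μ T ∧ ¬ SmoothFactor μ T := by
  obtain ⟨X, mX, μ, T, h1, h2, h3, h4, h5, h6⟩ := Vale.Agent.P109.all
  refine ⟨X, mX, μ, T, h1, h2, h3, h4, h5, ?_, h6⟩
  rintro ⟨d, H, i1, I, M, i2, i3, i4, i5, i6, i7, i8, ν, i9, S, X0, M0, F, G, a1, a2, a3, a4, a5,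
    -, a7, a8, a9, a10, a11, a12⟩
  refine h6 ⟨d, H, i1, I, M, i2, i3, i4, i5, i6, i7, i8, ν, i9, S, G, a1, a2, a10, ?_, ?_⟩
  · have hX : ∀ᵐ x ∂μ, x ∈ X0 := a3
    have h7 : G ∘ F =ᵐ[μ] id := hX.mono fun x hx => a8.1 hx
    rw [← a11] at a10 ⊢
    rw [a10.map_map_of_aemeasurable a9, Measure.map_congr h7, Measure.map_id]
  · have hM : ∀ᵐ y ∂ν, y ∈ M0 := a4
    refine hM.mono fun y hy => ?_
    obtain ⟨x, hx, rfl⟩ := a7.surjOn hy
    rw [← a12 x hx, a8.1 (a5 hx), a8.1 hx]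

end Vale.Agent.Results.P109.NoModel
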