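import Vale.Agent.P109O.Mfd

open MeasureTheory Filter

namespace Vale.Agent.Results.P109.Odometer

open Vale.Agent.P109O

/-- Every odometer (adding machine) has a smooth area preserving model on the two-torus. -/
theorem result [MeasurableSpace Circle] [BorelSpace Circle] (q : ℕ → ℕ) (hq : ∀ n, 0 < q n)
    (hd : ∀ n, q n ∣ q (n + 1)) (ht : Tendsto q atTop atTop) :
    ∃ S : Circle × Circle → Circle × Circle, IsDiffeo S ∧
      MeasurePreserving S area area ∧ (∃ ρ, IsOdometer area S q ρ) ∧
      ∀ (X : Type*) [MeasurableSpace X] [StandardBorelSpace X] (μ : Measure X)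
        [IsProbabilityMeasure μ] (T : X ≃ᵐ X), MeasurePreserving T μ μ →
        ∀ π, IsOdometer μ T q π → Iso μ T area S := by
  obtain ⟨S, h1, ρ, h2⟩ := model hq hd ht
  refine ⟨S, ⟨S.contMDiff, S.symm, S.symm.contMDiff, S.symm_apply_apply, S.apply_symm_apply⟩,
    h1, ⟨ρ, h2⟩, fun X _ _ μ _ T hT π hπ => ?_⟩
  have := prob_area
  exact iso_of_odo (S := S.toHomeomorph.toMeasurableEquiv) hT h1 hq hd hπ h2

end Vale.Agent.Results.P109.Odometer
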